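import Vale.Agent.P254.S.Iface

/-!
P254, block SP (Gaussian source, weight `t`), row SP-POS (owner helper216): existence of the position
`E g(D²φ) = 0`.

Convention: `P` symmetric positive definite, `V_P := fun x => V (lin P x)` (the law of `P⁻¹ X`, `X ~ e^{-V}`),
`φ P` the Brenier potential of the standard Gaussian onto `e^{-V_P}`,
`Box n p q` = symmetric matrices with `p ≤ P ≤ q`.
-/

open MeasureTheory
open scoped Topology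

namespace Vale.Agent.P254.SP.Pos

open Vale.Agent.P227.M Vale.Agent.P254.S

/-- symmetric matrices pinched between `p` and `q` -/
def Box (n : ℕ) (p q : ℝ) : Set (Matrix (Fin n) (Fin n) ℝ) :=
  {P | P.transpose = P ∧ (∀ v : E n, p * ‖v‖ ^ 2 ≤ qf P v) ∧ ∀ v : E n, qf P v ≤ q * ‖v‖ ^ 2}

/-- **P1** (topology, Brouwer): a symmetric-matrix field on `Box n p q` which points in the right
direction on the faces has a zero -/
def StmtZero : Prop := ∀ (n : ℕ) (p q : ℝ), 0 < p → p < q →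
  ∀ F : Matrix (Fin n) (Fin n) ℝ → Matrix (Fin n) (Fin n) ℝ,
  ContinuousOn F (Box n p q) → (∀ P ∈ Box n p q, (F P).transpose = F P) →
  (∀ P ∈ Box n p q, ∀ v : E n, v ≠ 0 → lin P v = p • v → 0 < qf (F P) v) →
  (∀ P ∈ Box n p q, ∀ v : E n, v ≠ 0 → lin P v = q • v → qf (F P) v < 0) →
  ∃ P ∈ Box n p q, F P = 0

/-- mean of the matrix field `g(D²φ)` -/
noncomputable def mF {n : ℕ} (U : E n → Matrix (Fin n) (Fin n) ℝ) (m : E n → Fin n → ℝ) (g : ℝ → ℝ) :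
    Matrix (Fin n) (Fin n) ℝ := fun i j => Ex Q (fun z => fc U m g z i j)

/-- **P3** (continuity of `P ↦ E g(D²φ_P)`), from Brenier potentials with common `a`, `b` -/
def StmtCont : Prop := ∀ (n : ℕ) (V : E n → ℝ) (c C : ℝ), Reg V c C → ∀ p q a b : ℝ, 0 < p → p ≤ q →
  ∀ (φ : Matrix (Fin n) (Fin n) ℝ → E n → ℝ) (M κ : Matrix (Fin n) (Fin n) ℝ → ℝ),
  (∀ P ∈ Box n p q, BP (φ P) (fun x => V (lin P x)) a b (M P) (κ P)) →
  ∀ (U : Matrix (Fin n) (Fin n) ℝ → E n → Matrix (Fin n) (Fin n) ℝ)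
    (m : Matrix (Fin n) (Fin n) ℝ → E n → Fin n → ℝ),
  (∀ P ∈ Box n p q, Spec (hess (φ P)) (U P) (m P)) →
  ∀ (g : ℝ → ℝ) (L : ℝ), (∀ x ∈ Set.Icc a b, ∀ y ∈ Set.Icc a b, |g x - g y| ≤ L * |x - y|) →
    ContinuousOn (fun P => mF (U P) (m P) g) (Box n p q)

/-- **P4** (faces): signs of `⟨v, E g(D²φ_P) v⟩` at an eigenvector of `P` -/
def StmtFace : Prop := ∀ (n : ℕ) (V : E n → ℝ) (c C : ℝ), Reg V c C →
  ∀ P : Matrix (Fin n) (Fin n) ℝ, P.transpose = P → P.det ≠ 0 → ∀ (φ : E n → ℝ) (a b M κ : ℝ),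
  BP φ (fun x => V (lin P x)) a b M κ → ∀ (U : E n → Matrix (Fin n) (Fin n) ℝ) (m : E n → Fin n → ℝ),
  Spec (hess φ) U m → ∀ g : ℝ → ℝ, MonotoneOn g (Set.Ioi 0) → ConcaveOn ℝ (Set.Ioi 0) g →
  ConvexOn ℝ (Set.Ioi 0) (fun s => g s⁻¹) → ContinuousOn g (Set.Ioi 0) →
  ∀ (t : ℝ) (v : E n), 0 < t → v ≠ 0 → lin P v = t • v →
    qf (mF U m g) v ≤ g (Real.sqrt (Ex V (fun x => ‖x‖ ^ 2)) / t) * ‖v‖ ^ 2 ∧
    g (1 / (t * Real.sqrt C)) * ‖v‖ ^ 2 ≤ qf (mF U m g) v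

/-- **EXU** (existence with uniform pinching) -/
def StmtEXU : Prop := ∀ (n : ℕ) (V : E n → ℝ) (c C : ℝ), Reg V c C → 0 < C →
  ∃ (φ : E n → ℝ) (M κ : ℝ), BP φ V (2 * Real.sqrt C)⁻¹ (Real.sqrt c)⁻¹ M κ

/-- **SP-POS**: the position `E g(D²φ) = 0` -/
def StmtPosG : Prop := ∀ (n : ℕ) (V : E n → ℝ) (c C : ℝ), Reg V c C →
  ∀ g : ℝ → ℝ, MonotoneOn g (Set.Ioi 0) → ConcaveOn ℝ (Set.Ioi 0) g →
  ConvexOn ℝ (Set.Ioi 0) (fun s => g s⁻¹) →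
  (∀ a b : ℝ, 0 < a → ∃ L : ℝ, ∀ x ∈ Set.Icc a b, ∀ y ∈ Set.Icc a b, |g x - g y| ≤ L * |x - y|) →
  (∃ s, 0 < s ∧ g s < 0) → (∃ s, 0 < s ∧ 0 < g s) →
  ∃ (P : Matrix (Fin n) (Fin n) ℝ) (c' C' : ℝ), P.transpose = P ∧ P.PosDef ∧
    Reg (fun x => V (lin P x)) c' C' ∧
    ∃ (φ : E n → ℝ) (a b M κ : ℝ), BP φ (fun x => V (lin P x)) a b M κ ∧
      ∀ (U : E n → Matrix (Fin n) (Fin n) ℝ) (m : E n → Fin n → ℝ), Spec (hess φ) U m →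
        mF U m g = 0

end Vale.Agent.P254.SP.Pos
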