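import Vale.Agent.P254.SP.POS.Iface
import Vale.Agent.P254.SP.H620.DK
import Vale.Agent.P254.SP.IfaceA
import Vale.Agent.P254.S.H545.GaugeAd

/-!
P254, block SP, row SP-POS, assembly (helper216): `StmtZero → StmtCont → StmtFace → StmtEXU → StmtPosG`,
and `StmtPosG → SP.StmtPos`.
-/

open MeasureTheory Matrix Filter
open scoped Topology

namespace Vale.Agent.P254.SP.Pos

open Vale.Agent.P227.M Vale.Agent.P254.S

variable {n : ℕ}

/-! ### linear algebra on the box -/

theorem qf_eq_inner (P : Matrix (Fin n) (Fin n) ℝ) (v : E n) : qf P v = inner ℝ (lin P v) v := by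
  unfold qf lin
  rw [PiLp.inner_apply]
  refine Finset.sum_congr rfl fun i _ => ?_
  simp only [Matrix.mulVec, dotProduct, RCLike.inner_apply, conj_trivial, Finset.mul_sum]
  refine Finset.sum_congr rfl fun j _ => ?_
  ring

theorem inner_lin_symm {P : Matrix (Fin n) (Fin n) ℝ} (hP : P.transpose = P) (v w : E n) :
    inner ℝ (lin P v) w = (inner ℝ (lin P w) v : ℝ) := by
  unfold lin
  rw [PiLp.inner_apply, PiLp.inner_apply]
  simp only [Matrix.mulVec, dotProduct, RCLike.inner_apply, conj_trivial, Finset.mul_sum]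
  rw [Finset.sum_comm]
  refine Finset.sum_congr rfl fun i _ => Finset.sum_congr rfl fun j _ => ?_
  have h : P j i = P i j := by
    have := congrFun (congrFun hP i) j
    simpa [Matrix.transpose_apply] using this
  rw [h]
  ring

theorem norm_lin_ge {P : Matrix (Fin n) (Fin n) ℝ} {p : ℝ}
    (hl : ∀ v : E n, p * ‖v‖ ^ 2 ≤ qf P v) (v : E n) : p * ‖v‖ ≤ ‖lin P v‖ := by
  rcases eq_or_lt_of_le (norm_nonneg v) with h0 | h0
  · rw [← h0, mul_zero]; exact norm_nonneg _
  · have h1 := hl v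
    rw [qf_eq_inner] at h1
    have h2 := h1.trans ((le_abs_self _).trans (abs_real_inner_le_norm _ _))
    have h3 : (p * ‖v‖) * ‖v‖ ≤ ‖lin P v‖ * ‖v‖ := by nlinarith
    exact le_of_mul_le_mul_right h3 h0

theorem norm_lin_le {P : Matrix (Fin n) (Fin n) ℝ} {q : ℝ} (hP : P.transpose = P) (hq : 0 ≤ q)
    (h0 : ∀ v : E n, 0 ≤ qf P v) (hu : ∀ v : E n, qf P v ≤ q * ‖v‖ ^ 2) (v : E n) :
    ‖lin P v‖ ≤ q * ‖v‖ := by
  set w := lin P v with hw
  have hcs : (‖w‖ ^ 2) ^ 2 ≤ qf P v * qf P w := by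
    have hqd : ∀ t : ℝ, 0 ≤ qf P v + 2 * t * ‖w‖ ^ 2 + t ^ 2 * qf P w := by
      intro t
      have h1 := h0 (v + t • w)
      have e : lin P (v + t • w) = lin P v + t • lin P w := by
        rw [← H545.linL_apply, map_add, map_smul]
        rfl
      have h2 : qf P (v + t • w) = qf P v + 2 * t * ‖w‖ ^ 2 + t ^ 2 * qf P w := by
        rw [qf_eq_inner, qf_eq_inner, qf_eq_inner, e]
        simp only [inner_add_left, inner_add_right, real_inner_smul_left, real_inner_smul_right]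
        rw [inner_lin_symm hP w v, ← hw, real_inner_self_eq_norm_sq]
        ring
      linarith
    have hd := discrim_le_zero (a := qf P w) (b := 2 * ‖w‖ ^ 2) (c := qf P v)
      (fun t => by have := hqd t; nlinarith [this])
    unfold discrim at hd
    nlinarith
  have h4 : (‖w‖ ^ 2) ^ 2 ≤ (q * ‖v‖ ^ 2) * (q * ‖w‖ ^ 2) :=
    hcs.trans (mul_le_mul (hu v) (hu w) (h0 _) (by positivity))
  rcases eq_or_lt_of_le (norm_nonneg w) with h5 | h5
  · rw [← h5]; positivity
  · have h6 : ‖w‖ ^ 2 ≤ (q * ‖v‖) ^ 2 := by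
      have h7 : 0 < ‖w‖ ^ 2 := by positivity
      have h8 : ‖w‖ ^ 2 * ‖w‖ ^ 2 ≤ (q * ‖v‖) ^ 2 * ‖w‖ ^ 2 := by nlinarith
      exact le_of_mul_le_mul_right h8 h7
    exact (pow_le_pow_iff_left₀ (norm_nonneg _) (by positivity) two_ne_zero).1 h6

theorem posDef_of_box {p q : ℝ} (hp : 0 < p) {P : Matrix (Fin n) (Fin n) ℝ} (h : P ∈ Box n p q) :
    P.PosDef := by
  refine Matrix.PosDef.of_dotProduct_mulVec_pos ?_ fun v hv => ?_
  · rw [Matrix.IsHermitian, conjTranspose_eq_transpose_of_trivial]; exact h.1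
  · have h1 := h.2.1 (WithLp.toLp 2 v)
    have h4 : qf P (WithLp.toLp 2 v) = star v ⬝ᵥ P *ᵥ v := by
      unfold qf
      simp only [star_trivial, dotProduct, mulVec, Finset.mul_sum]
      refine Finset.sum_congr rfl fun i _ => Finset.sum_congr rfl fun j _ => ?_
      ring
    rw [← h4]
    refine lt_of_lt_of_le ?_ h1
    have hv' : (WithLp.toLp 2 v : E n) ≠ 0 := by
      intro h0
      apply hv
      have := congrArg WithLp.ofLp h0
      simpa using this
    have := norm_pos_iff.2 hv'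
    positivity

theorem det_ne_of_box {p q : ℝ} (hp : 0 < p) {P : Matrix (Fin n) (Fin n) ℝ} (h : P ∈ Box n p q) :
    P.det ≠ 0 := (posDef_of_box hp h).det_pos.ne'

/-- `V_P` is regular with uniform constants -/
theorem reg_box {V : E n → ℝ} {c C p q : ℝ} (hV : Reg V c C) (hC : 0 ≤ C) (hp : 0 < p) (hpq : p ≤ q)
    {P : Matrix (Fin n) (Fin n) ℝ} (h : P ∈ Box n p q) :
    Reg (fun x => V (lin P x)) (c * p ^ 2) (C * q ^ 2) := by
  obtain ⟨c', C', hr⟩ := H545.reg_lin hV (det_ne_of_box hp h)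
  have hc := hV.c_pos
  have hq : 0 < q := hp.trans_le hpq
  refine ⟨by positivity, hr.smooth, fun x v => ?_, fun x v => ?_, hr.bdd⟩
  · rw [H545.qf_hess_lin hV.C2]
    refine le_trans ?_ (hV.lower _ _)
    have h1 := norm_lin_ge h.2.1 v
    have h2 : (p * ‖v‖) ^ 2 ≤ ‖lin P v‖ ^ 2 := pow_le_pow_left₀ (by positivity) h1 2
    calc c * p ^ 2 * ‖v‖ ^ 2 = c * (p * ‖v‖) ^ 2 := by ring
      _ ≤ c * ‖lin P v‖ ^ 2 := mul_le_mul_of_nonneg_left h2 hc.le
  · rw [H545.qf_hess_lin hV.C2]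
    refine (hV.upper _ _).trans ?_
    have h1 := norm_lin_le h.1 hq.le (fun v => le_trans (by positivity) (h.2.1 v)) h.2.2 v
    have h2 : ‖lin P v‖ ^ 2 ≤ (q * ‖v‖) ^ 2 := pow_le_pow_left₀ (norm_nonneg _) h1 2
    calc C * ‖lin P v‖ ^ 2 ≤ C * (q * ‖v‖) ^ 2 := mul_le_mul_of_nonneg_left h2 hC
      _ = C * q ^ 2 * ‖v‖ ^ 2 := by ring

/-! ### spectral frames -/

theorem Spec.dec {M : E n → Matrix (Fin n) (Fin n) ℝ} {U : E n → Matrix (Fin n) (Fin n) ℝ}
    {m : E n → Fin n → ℝ} (h : Spec M U m) (z : E n) : SP620.Dec (M z) (U z) (m z) :=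
  ⟨mul_eq_one_comm.1 (h.orth z), h.dec z⟩

theorem fc_eq_fm (U : E n → Matrix (Fin n) (Fin n) ℝ) (m : E n → Fin n → ℝ) (g : ℝ → ℝ) (z : E n) :
    fc U m g z = S130.fm g (U z) (m z) := rfl

/-- `F(M)` does not depend on the frame -/
theorem fc_indep {M : E n → Matrix (Fin n) (Fin n) ℝ} {U U' : E n → Matrix (Fin n) (Fin n) ℝ}
    {m m' : E n → Fin n → ℝ} (h : Spec M U m) (h' : Spec M U' m') (g : ℝ → ℝ) (z : E n) :
    fc U m g z = fc U' m' g z := by
  rw [fc_eq_fm, fc_eq_fm]
  exact SP620.fm_indep (Spec.dec h z) (Spec.dec h' z) g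

theorem mF_indep {M : E n → Matrix (Fin n) (Fin n) ℝ} {U U' : E n → Matrix (Fin n) (Fin n) ℝ}
    {m m' : E n → Fin n → ℝ} (h : Spec M U m) (h' : Spec M U' m') (g : ℝ → ℝ) :
    mF U m g = mF U' m' g := by
  funext i j
  unfold mF
  congr 1
  funext z
  rw [fc_indep h h' g z]

theorem fc_symm (U : E n → Matrix (Fin n) (Fin n) ℝ) (m : E n → Fin n → ℝ) (g : ℝ → ℝ) (z : E n) :
    (fc U m g z).transpose = fc U m g z := by
  unfold fc
  rw [transpose_mul, transpose_mul, transpose_transpose, diagonal_transpose, Matrix.mul_assoc]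

theorem mF_symm (U : E n → Matrix (Fin n) (Fin n) ℝ) (m : E n → Fin n → ℝ) (g : ℝ → ℝ) :
    (mF U m g).transpose = mF U m g := by
  funext i j
  rw [transpose_apply]
  unfold mF
  congr 1
  funext z
  have := congrFun (congrFun (fc_symm U m g z) i) j
  rwa [transpose_apply] at this

theorem exists_spec {φ : E n → ℝ} (hφ : ContDiff ℝ 2 φ) : ∃ U m, Spec (hess φ) U m := by
  have h : ∀ z, ∃ q : Matrix (Fin n) (Fin n) ℝ × (Fin n → ℝ), SP620.Dec (hess φ z) q.1 q.2 := by
    intro z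
    have hs : (hess φ z).transpose = hess φ z := by
      ext i j
      rw [transpose_apply]
      exact hess_symm hφ z j i
    obtain ⟨U, m, h⟩ := SP620.exists_dec hs
    exact ⟨(U, m), h⟩
  choose q hq using h
  exact ⟨fun z => (q z).1, fun z => (q z).2, fun z => (hq z).orth', fun z => (hq z).eq⟩

/-! ### positivity of the second moment -/

theorem Ex_sq_pos (hn : 0 < n) {V : E n → ℝ} {c C : ℝ} (hV : Reg V c C) :
    0 < Ex V (fun x => ‖x‖ ^ 2) := by
  unfold Ex
  refine div_pos ?_ hV.Z_pos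
  have hint : Integrable fun x : E n => ‖x‖ ^ 2 * Real.exp (-V x) := hV.integrable_gr (Gr.norm.pow 2)
  rw [integral_pos_iff_support_of_nonneg (fun x => by positivity) hint]
  have hne : Nonempty (Fin n) := ⟨⟨0, hn⟩⟩
  have : Nontrivial (E n) := by
    refine ⟨⟨0, ei ⟨0, hn⟩, ?_⟩⟩
    intro h
    have := congrArg (fun x : E n => x ⟨0, hn⟩) h
    simp [ei] at this
  have hs : Function.support (fun x : E n => ‖x‖ ^ 2 * Real.exp (-V x)) = {0}ᶜ := by
    ext x
    simp [Function.mem_support, (Real.exp_pos _).ne']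
  rw [hs]
  exact isOpen_compl_singleton.measure_pos _ (Set.nonempty_compl_of_nontrivial 0)

/-! ### the assembly -/

theorem stmtPosG_of (h1 : StmtZero) (h3 : StmtCont) (h4 : StmtFace) (hE : StmtEXU) : StmtPosG := by
  intro n V c C hV g hmono hconc hconv hlip hneg hpos
  rcases Nat.eq_zero_or_pos n with hn | hn
  · subst hn
    have hbox : (1 : Matrix (Fin 0) (Fin 0) ℝ) ∈ Box 0 1 1 := by
      refine ⟨by simp, fun v => ?_, fun v => ?_⟩ <;> simp [qf, Subsingleton.elim v 0]
    have hV' : Reg V c (max C 1) := by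
      refine ⟨hV.c_pos, hV.smooth, hV.lower, fun x v => ?_, hV.bdd⟩
      simp [qf, Subsingleton.elim v 0]
    have hr := reg_box hV' (by positivity) one_pos le_rfl hbox
    obtain ⟨φ, M, κ, hB⟩ := hE 0 _ _ _ hr (by
      have : (0 : ℝ) < max C 1 := lt_max_of_lt_right one_pos
      positivity)
    refine ⟨1, _, _, hbox.1, posDef_of_box one_pos hbox, hr, φ, _, _, M, κ, hB, fun U m _ => ?_⟩
    funext i
    exact i.elim0
  · have hc := hV.c_pos
    have hcC : c ≤ C := MM.nice_le hn hV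
    have hC0 : 0 < C := hc.trans_le hcC
    obtain ⟨s0, hs0, hg0⟩ := hneg
    obtain ⟨s1, hs1, hg1⟩ := hpos
    have hm2 := Ex_sq_pos hn hV
    set σ : ℝ := Real.sqrt (Ex V fun x => ‖x‖ ^ 2) with hσ
    have hσ0 : 0 < σ := Real.sqrt_pos.2 hm2
    have hsC : 0 < Real.sqrt C := Real.sqrt_pos.2 hC0
    set p : ℝ := 1 / (s1 * Real.sqrt C) with hp
    have hp0 : 0 < p := by positivity
    set q : ℝ := max (σ / s0) p + 1 with hq
    have hpq : p < q := lt_of_le_of_lt (le_max_right _ _) (lt_add_one _)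
    have hq0 : 0 < q := hp0.trans hpq
    set a : ℝ := (2 * Real.sqrt (C * q ^ 2))⁻¹ with ha
    set b : ℝ := (Real.sqrt (c * p ^ 2))⁻¹ with hb
    have ha0 : 0 < a := by
      have : 0 < Real.sqrt (C * q ^ 2) := Real.sqrt_pos.2 (by positivity)
      positivity
    have hfam : ∀ P : Matrix (Fin n) (Fin n) ℝ, ∃ (φ : E n → ℝ) (M κ : ℝ)
        (U : E n → Matrix (Fin n) (Fin n) ℝ) (m : E n → Fin n → ℝ), P ∈ Box n p q →
        BP φ (fun x => V (lin P x)) a b M κ ∧ Spec (hess φ) U m := by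
      intro P
      by_cases hP : P ∈ Box n p q
      · obtain ⟨φ, M, κ, hB⟩ := hE n _ _ _ (reg_box hV hC0.le hp0 hpq.le hP) (by positivity)
        obtain ⟨U, m, hS⟩ := exists_spec hB.C2
        exact ⟨φ, M, κ, U, m, fun _ => ⟨hB, hS⟩⟩
      · exact ⟨0, 0, 0, 0, 0, fun h => absurd h hP⟩
    choose φ M κ U m hfam using hfam
    obtain ⟨L, hL⟩ := hlip a b ha0
    have hcont := h3 n V c C hV p q a b hp0 hpq.le φ M κ (fun P hP => (hfam P hP).1) U m
      (fun P hP => (hfam P hP).2) g L hL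
    have hgc : ContinuousOn g (Set.Ioi 0) := hconc.continuousOn isOpen_Ioi
    have hface : ∀ P ∈ Box n p q, ∀ (t : ℝ) (v : E n), 0 < t → v ≠ 0 → lin P v = t • v →
        qf (mF (U P) (m P) g) v ≤ g (σ / t) * ‖v‖ ^ 2 ∧
        g (1 / (t * Real.sqrt C)) * ‖v‖ ^ 2 ≤ qf (mF (U P) (m P) g) v := fun P hP t v ht hv he =>
      h4 n V c C hV P hP.1 (det_ne_of_box hp0 hP) (φ P) a b (M P) (κ P) (hfam P hP).1 (U P) (m P)
        (hfam P hP).2 g hmono hconc hconv hgc t v ht hv he
    have hlow : ∀ P ∈ Box n p q, ∀ v : E n, v ≠ 0 → lin P v = p • v →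
        0 < qf (mF (U P) (m P) g) v := by
      intro P hP v hv he
      have h5 := (hface P hP p v hp0 hv he).2
      have h6 : 1 / (p * Real.sqrt C) = s1 := by
        rw [hp]; field_simp
      rw [h6] at h5
      refine lt_of_lt_of_le ?_ h5
      have := norm_pos_iff.2 hv
      positivity
    have hup : ∀ P ∈ Box n p q, ∀ v : E n, v ≠ 0 → lin P v = q • v →
        qf (mF (U P) (m P) g) v < 0 := by
      intro P hP v hv he
      have h5 := (hface P hP q v hq0 hv he).1
      refine lt_of_le_of_lt h5 ?_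
      have h6 : σ / q ≤ s0 := by
        rw [div_le_iff₀ hq0]
        have h7 : σ / s0 ≤ q := (le_max_left _ _).trans (le_add_of_nonneg_right zero_le_one)
        rw [div_le_iff₀ hs0] at h7
        linarith
      have h8 : g (σ / q) ≤ g s0 := hmono (Set.mem_Ioi.2 (by positivity)) (Set.mem_Ioi.2 hs0) h6
      have h9 := norm_pos_iff.2 hv
      have h10 : 0 < ‖v‖ ^ 2 := by positivity
      nlinarith
    obtain ⟨P, hP, hz⟩ := h1 n p q hp0 hpq (fun P => mF (U P) (m P) g) hcont
      (fun P _ => mF_symm _ _ _) hlow hup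
    refine ⟨P, _, _, hP.1, posDef_of_box hp0 hP, reg_box hV hC0.le hp0 hpq.le hP, φ P, a, b, M P,
      κ P, (hfam P hP).1, fun U' m' hS => ?_⟩
    rw [mF_indep hS (hfam P hP).2]
    exact hz

/-! ### locally Lipschitz from concave and monotone -/

theorem lip_of_concave {g : ℝ → ℝ} (hmono : MonotoneOn g (Set.Ioi 0))
    (hconc : ConcaveOn ℝ (Set.Ioi 0) g) (a b : ℝ) (ha : 0 < a) :
    ∃ L : ℝ, ∀ x ∈ Set.Icc a b, ∀ y ∈ Set.Icc a b, |g x - g y| ≤ L * |x - y| := by
  refine ⟨(g a - g (a / 2)) / (a - a / 2), ?_⟩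
  have key : ∀ x ∈ Set.Icc a b, ∀ y ∈ Set.Icc a b, x < y →
      |g x - g y| ≤ (g a - g (a / 2)) / (a - a / 2) * |x - y| := by
    intro x hx y hy hxy
    have hx0 : 0 < x := ha.trans_le hx.1
    have hy0 : 0 < y := hx0.trans hxy
    have h1 : g x ≤ g y := hmono hx0 hy0 hxy.le
    rw [abs_of_nonpos (by linarith), abs_of_neg (by linarith)]
    have h2 : (g y - g x) / (y - x) ≤ (g a - g (a / 2)) / (a - a / 2) := by
      have ha2 : a / 2 < a := by linarith
      rcases eq_or_lt_of_le hx.1 with h | h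
      · rw [← h] at hxy ⊢
        exact hconc.slope_anti_adjacent (Set.mem_Ioi.2 (by positivity)) (Set.mem_Ioi.2 hy0) ha2 hxy
      · exact (hconc.slope_anti_adjacent (Set.mem_Ioi.2 ha) (Set.mem_Ioi.2 hy0) h hxy).trans
          (hconc.slope_anti_adjacent (Set.mem_Ioi.2 (by positivity)) (Set.mem_Ioi.2 hx0) ha2 h)
    rw [div_le_iff₀ (by linarith)] at h2
    linarith
  intro x hx y hy
  rcases lt_trichotomy x y with h | h | h
  · exact key x hx y hy h
  · rw [h]; simp
  · rw [abs_sub_comm, abs_sub_comm x y]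
    exact key y hy x hx h

/-! ### the position for the functions of the interface -/

theorem F1.L_strictMono (P : F1) : StrictMono P.L :=
  strictMono_of_hasDerivAt_pos P.hL P.L'_pos

theorem F1.g_strictMonoOn (P : F1) : StrictMonoOn P.g (Set.Ioi 0) := by
  intro x hx y hy hxy
  by_contra hcon
  push Not at hcon
  have h1 := (F1.L_strictMono P).monotone hcon
  rw [P.L_g x hx, P.L_g y hy] at h1
  linarith

/-- **SP-POS** -/
theorem stmtPos_of (h : StmtPosG) : StmtPos := by
  intro P n V c C hV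
  have hmono := (F1.g_strictMonoOn P).monotoneOn
  have hconv : ConvexOn ℝ (Set.Ioi 0) (fun s => P.g s⁻¹) := by
    simpa only [one_div] using P.g_inv_convex
  obtain ⟨A, c', C', hAs, hA, hr, φ, a, b, M, κ, hB, hz⟩ := h n V c C hV P.g hmono P.g_concave hconv
    (lip_of_concave hmono P.g_concave) ⟨P.L (-1), P.L_pos _, by rw [P.g_L]; norm_num⟩
    ⟨P.L 1, P.L_pos _, by rw [P.g_L]; norm_num⟩
  obtain ⟨U, m, hS⟩ := exists_spec hB.C2
  have hm : ∀ z i, 0 < m z i := by
    intro z i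
    have hd := Spec.dec hS z
    have h1 := hB.lower z (WithLp.toLp 2 (fun k => U z k i))
    have h2 : qf (hess φ z) (WithLp.toLp 2 (fun k => U z k i)) = m z i := by
      have h3 : ((U z).transpose * hess φ z * U z) i i = m z i := by
        rw [hd.eq]
        have : (U z).transpose * (U z * diagonal (m z) * (U z).transpose) * U z
            = ((U z).transpose * U z) * diagonal (m z) * ((U z).transpose * U z) := by
          simp only [Matrix.mul_assoc]
        rw [this, hd.orth, Matrix.one_mul, Matrix.mul_one, diagonal_apply_eq]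
      rw [← h3]
      unfold qf
      simp only [Matrix.mul_apply, transpose_apply, Finset.sum_mul]
      rw [Finset.sum_comm]
      refine Finset.sum_congr rfl fun j _ => Finset.sum_congr rfl fun k _ => ?_
      ring
    have h4 : ‖(WithLp.toLp 2 (fun k => U z k i) : E n)‖ ^ 2 = 1 := by
      rw [norm_sq_eq_sum]
      have h5 : ((U z).transpose * U z) i i = 1 := by rw [hd.orth, one_apply_eq]
      rw [← h5, Matrix.mul_apply]
      refine Finset.sum_congr rfl fun k _ => ?_
      rw [transpose_apply]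
      simp only
      ring
    rw [h2, h4, mul_one] at h1
    exact hB.a_pos.trans_le h1
  refine ⟨A, c', C', hA.det_pos.ne', hr, φ, a, b, M, κ, U, fun z i => P.g (m z i), hB,
    ⟨hS.orth, fun z => ?_⟩, fun i j => ?_⟩
  · rw [hS.dec z]
    unfold fc
    congr 3
    funext k
    rw [P.L_g _ (hm z k)]
  · have h1 := congrFun (congrFun (hz U m hS) i) j
    exact h1

end Vale.Agent.P254.SP.Pos
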