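import Vale.Agent.P254.SP.POS.Iface
import Vale.Agent.P254.S.EXFin

/-!
P254, block SP-POS (helper911): `StmtEXU` of `SP/POS/Iface.lean`, unconditional.
-/

namespace Vale.Agent.P254.SP.Pos

open Vale.Agent.P227.M Vale.Agent.P254.S

/-- **EXU**, unconditional -/
theorem stmtEXU : StmtEXU := by
  intro n V c C hV hC
  rcases Nat.eq_zero_or_pos n with rfl | hn
  · have hz : ∀ v : E 0, ‖v‖ = 0 := fun v => by rw [Subsingleton.elim v 0, norm_zero]
    refine ⟨fun _ => 0, 0, V 0, by positivity, contDiff_const, fun x v => ?_, fun x v => ?_,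
      fun i => i.elim0, fun x => ?_⟩
    · simp [qf, hz]
    · simp [qf, hz]
    · rw [Subsingleton.elim (gradient (fun _ : E 0 => (0 : ℝ)) x) 0, hz x]
      simp
  · exact Vale.Agent.P254.S.stmtEXU n hn V c C hV

end Vale.Agent.P254.SP.Pos
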